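import Mathlib

/-!
# P127: Kakeya sets whose segments have base points depending on the direction in a
Lipschitz way with constant below one, near one direction, have full Hausdorff dimension
-/

open scoped InnerProductSpace NNReal
open Module

namespace Vale.Agent.Results.P127.LipschitzBasePoints

section

variable {E : Type*} [NormedAddCommGroup E] [InnerProductSpace ℝ E]

theorem normalize_dist {x y : E} {t0 : ℝ} (ht : 0 < t0) (hx : t0 ≤ ‖x‖) (hy : t0 ≤ ‖y‖) :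
    t0 * ‖(‖x‖⁻¹ • x) - (‖y‖⁻¹ • y)‖ ≤ ‖x - y‖ := by
  have hp : 0 < ‖x‖ := lt_of_lt_of_le ht hx
  have hq : 0 < ‖y‖ := lt_of_lt_of_le ht hy
  have h1 : ‖(‖x‖⁻¹ • x) - (‖y‖⁻¹ • y)‖ ^ 2 = 2 - 2 * (⟪x, y⟫_ℝ / (‖x‖ * ‖y‖)) := by
    rw [norm_sub_sq_real, norm_smul, norm_smul, inner_smul_left, inner_smul_right]
    simp only [norm_inv, norm_norm, conj_trivial]
    rw [inv_mul_cancel₀ hp.ne', inv_mul_cancel₀ hq.ne']
    field_simp
    ring
  have h2 : ‖x - y‖ ^ 2 = ‖x‖ ^ 2 - 2 * ⟪x, y⟫_ℝ + ‖y‖ ^ 2 := norm_sub_sq_real x y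
  have h3 : ⟪x, y⟫_ℝ ≤ ‖x‖ * ‖y‖ := real_inner_le_norm x y
  have hpq : 0 < ‖x‖ * ‖y‖ := mul_pos hp hq
  have h4 : 0 ≤ 2 - 2 * (⟪x, y⟫_ℝ / (‖x‖ * ‖y‖)) := by
    have : ⟪x, y⟫_ℝ / (‖x‖ * ‖y‖) ≤ 1 := by rw [div_le_one hpq]; exact h3
    linarith
  have h5 : t0 ^ 2 ≤ ‖x‖ * ‖y‖ := by nlinarith
  have h6 : (t0 * ‖(‖x‖⁻¹ • x) - (‖y‖⁻¹ • y)‖) ^ 2 ≤ ‖x - y‖ ^ 2 := by
    rw [mul_pow, h1, h2]
    calc t0 ^ 2 * (2 - 2 * (⟪x, y⟫_ℝ / (‖x‖ * ‖y‖)))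
        ≤ (‖x‖ * ‖y‖) * (2 - 2 * (⟪x, y⟫_ℝ / (‖x‖ * ‖y‖))) :=
          mul_le_mul_of_nonneg_right h5 h4
      _ = 2 * (‖x‖ * ‖y‖) - 2 * ⟪x, y⟫_ℝ := by field_simp
      _ ≤ ‖x‖ ^ 2 - 2 * ⟪x, y⟫_ℝ + ‖y‖ ^ 2 := by nlinarith [sq_nonneg (‖x‖ - ‖y‖)]
  exact (pow_le_pow_iff_left₀ (by positivity) (by positivity) two_ne_zero).1 h6

variable [CompleteSpace E]

theorem interior_nonempty_of_cap (K : Set E) (a : E → E) (e0 : E) (r L : ℝ) (he0 : ‖e0‖ = 1)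
    (hr : 0 < r) (hL0 : 0 ≤ L) (hL : L < 1)
    (hseg : ∀ e : E, ‖e‖ = 1 → ‖e - e0‖ < r → ∀ t : ℝ, 0 ≤ t → t ≤ 1 → a e + t • e ∈ K)
    (hlip : ∀ e e' : E, ‖e‖ = 1 → ‖e - e0‖ < r → ‖e'‖ = 1 → ‖e' - e0‖ < r →
      ‖a e - a e'‖ ≤ L * ‖e - e'‖) :
    (interior K).Nonempty := by
  set t0 : ℝ := (L + 1) / 2 with ht0
  have ht0L : L < t0 := by rw [ht0]; linarith
  have ht01 : t0 < 1 := by rw [ht0]; linarith
  have ht0pos : 0 < t0 := lt_of_le_of_lt hL0 ht0L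
  set S : Set E := {x | t0 < ‖x‖ ∧ ‖x‖ < 1 ∧ ‖(‖x‖⁻¹ • x) - e0‖ < r} with hS
  set Ψ : E → E := fun x => a (‖x‖⁻¹ • x) + x with hΨ
  have hc1' : L / t0 < 1 := by rw [div_lt_one ht0pos]; exact ht0L
  have hc0' : 0 ≤ L / t0 := by positivity
  have hunit : ∀ x ∈ S, ‖(‖x‖⁻¹ • x)‖ = 1 := by
    intro x hx
    have hp : 0 < ‖x‖ := lt_trans ht0pos hx.1
    rw [norm_smul, norm_inv, norm_norm, inv_mul_cancel₀ hp.ne']
  -- the image of `S` lies in `K`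
  have himg : Ψ '' S ⊆ K := by
    rintro _ ⟨x, hx, rfl⟩
    have hp : 0 < ‖x‖ := lt_trans ht0pos hx.1
    have := hseg (‖x‖⁻¹ • x) (hunit x hx) hx.2.2 ‖x‖ hp.le hx.2.1.le
    rw [smul_smul, mul_inv_cancel₀ hp.ne', one_smul] at this
    exact this
  -- `Ψ` is a small Lipschitz perturbation of the identity on `S`
  have happ : ApproximatesLinearOn Ψ (ContinuousLinearMap.id ℝ E) S (Real.toNNReal (L / t0)) := by
    intro x hx y hy
    have h1 := hlip _ _ (hunit x hx) hx.2.2 (hunit y hy) hy.2.2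
    have h2 := normalize_dist ht0pos hx.1.le hy.1.le
    have h3 : ‖(‖x‖⁻¹ • x) - (‖y‖⁻¹ • y)‖ ≤ ‖x - y‖ / t0 := by
      rw [le_div_iff₀ ht0pos]; linarith
    have h5 : Ψ x - Ψ y - (ContinuousLinearMap.id ℝ E) (x - y)
        = a (‖x‖⁻¹ • x) - a (‖y‖⁻¹ • y) := by
      simp only [hΨ, ContinuousLinearMap.coe_id', id_eq]; abel
    rw [h5, Real.coe_toNNReal _ hc0']
    calc _ ≤ L * ‖(‖x‖⁻¹ • x) - (‖y‖⁻¹ • y)‖ := h1
      _ ≤ L * (‖x - y‖ / t0) := mul_le_mul_of_nonneg_left h3 hL0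
      _ = L / t0 * ‖x - y‖ := by ring
  -- `S` is a neighbourhood of the point `((1 + t0) / 2) e0`
  have hnhds : S ∈ nhds (((1 + t0) / 2) • e0) := by
    have hm : 0 < (1 + t0) / 2 := by linarith
    have hn : ‖((1 + t0) / 2) • e0‖ = (1 + t0) / 2 := by
      rw [norm_smul, he0, mul_one, Real.norm_of_nonneg hm.le]
    have hc1 : ∀ᶠ x in nhds (((1 + t0) / 2) • e0), t0 < ‖x‖ :=
      continuous_norm.continuousAt.eventually
        (lt_mem_nhds (by change t0 < ‖((1 + t0) / 2) • e0‖; rw [hn]; linarith))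
    have hc2 : ∀ᶠ x in nhds (((1 + t0) / 2) • e0), ‖x‖ < 1 :=
      continuous_norm.continuousAt.eventually
        (gt_mem_nhds (by change ‖((1 + t0) / 2) • e0‖ < 1; rw [hn]; linarith))
    have hcont : ContinuousAt (fun x : E => ‖(‖x‖⁻¹ • x) - e0‖) (((1 + t0) / 2) • e0) := by
      apply ContinuousAt.norm
      apply ContinuousAt.sub _ continuousAt_const
      apply ContinuousAt.smul _ continuousAt_id
      apply ContinuousAt.inv₀ continuous_norm.continuousAt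
      rw [hn]; exact hm.ne'
    have hc3 : ∀ᶠ x in nhds (((1 + t0) / 2) • e0), ‖(‖x‖⁻¹ • x) - e0‖ < r := by
      apply hcont.eventually (gt_mem_nhds _)
      change ‖(‖((1 + t0) / 2) • e0‖⁻¹ • (((1 + t0) / 2) • e0)) - e0‖ < r
      rw [hn, smul_smul, inv_mul_cancel₀ hm.ne', one_smul, sub_self, norm_zero]
      exact hr
    filter_upwards [hc1, hc2, hc3] with x h1 h2 h3
    exact ⟨h1, h2, h3⟩
  let rinv : (ContinuousLinearMap.id ℝ E).NonlinearRightInverse :=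
    { toFun := id
      nnnorm := 1
      bound' := fun y => by simp
      right_inv' := fun y => rfl }
  have hopen := happ.image_mem_nhds rinv hnhds (Or.inr (by
    change Real.toNNReal (L / t0) < (1 : ℝ≥0)⁻¹
    rw [inv_one]
    exact Real.toNNReal_lt_one.2 hc1'))
  exact ⟨Ψ (((1 + t0) / 2) • e0), mem_interior_iff_mem_nhds.2 (Filter.mem_of_superset hopen himg)⟩

end

/-- **Result.**  Let `K ⊆ ℝ^n` and suppose that for all unit vectors `e` in a cap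
`‖e - e0‖ < r` around one direction `e0`, the set `K` contains the unit segment
`{a e + t e : 0 ≤ t ≤ 1}`, where the base point `a e` is a Lipschitz function of `e` on the cap
with a constant `L < 1`.  Then `K` has nonempty interior, and Hausdorff dimension `n`. -/
theorem result (n : ℕ) (K : Set (EuclideanSpace ℝ (Fin n)))
    (a : EuclideanSpace ℝ (Fin n) → EuclideanSpace ℝ (Fin n)) (e0 : EuclideanSpace ℝ (Fin n))
    (r L : ℝ) (he0 : ‖e0‖ = 1) (hr : 0 < r) (hL0 : 0 ≤ L) (hL : L < 1)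
    (hseg : ∀ e : EuclideanSpace ℝ (Fin n), ‖e‖ = 1 → ‖e - e0‖ < r →
      ∀ t : ℝ, 0 ≤ t → t ≤ 1 → a e + t • e ∈ K)
    (hlip : ∀ e e' : EuclideanSpace ℝ (Fin n), ‖e‖ = 1 → ‖e - e0‖ < r → ‖e'‖ = 1 →
      ‖e' - e0‖ < r → ‖a e - a e'‖ ≤ L * ‖e - e'‖) :
    (interior K).Nonempty ∧ dimH K = n := by
  have h := interior_nonempty_of_cap K a e0 r L he0 hr hL0 hL hseg hlip
  refine ⟨h, ?_⟩
  rw [Real.dimH_of_nonempty_interior h]
  simp

end Vale.Agent.Results.P127.LipschitzBasePoints
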